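import Vale.Agent.P037.GFinal

/-!
# P037: the polynomial removal bound for every `2 × 2` pattern

The conjectured bound `N_H(A) ≥ c_H ε^(C_H) n^(2k)` is proved for all sixteen binary patterns with `k = 2`.
-/

namespace Vale.Agent.Results.P037.All2x2

open Vale.Agent.P037

theorem result (H : Fin 2 → Fin 2 → Bool) :
    ∃ c : ℝ, 0 < c ∧ ∃ C : ℕ, ∀ (n : ℕ) (ε : ℝ) (A : Fin n → Fin n → Bool), 0 < ε → ε < 1 →
      IsFar H A ε → c * ε ^ C * (n : ℝ) ^ (2 * 2) ≤ (numCopies H A : ℝ) :=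
  all2 H

end Vale.Agent.Results.P037.All2x2
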