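import Vale.Agent.P037.GFinal
import Vale.Agent.P037.FoldFinal

/-!
# P037: the polynomial removal bound for every pattern with at most two row blocks and two column blocks

The statement below uses Mathlib notions only. A binary `k × k` pattern `H` is admitted when there are
cut positions `a` and `b` such that `H i j` depends only on whether `i < a` and on whether `j < b`.
-/

namespace Vale.Agent.Results.P037.BlockPatterns

open Vale.Agent.P037

/-- A degenerate cut may be replaced by the cut at position one. -/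
private lemma cut_fix {k : ℕ} (hk : 2 ≤ k) (a : ℕ) :
    ∃ a' : ℕ, 0 < a' ∧ a' < k ∧
      ∀ i i' : Fin k, ((i : ℕ) < a' ↔ (i' : ℕ) < a') → ((i : ℕ) < a ↔ (i' : ℕ) < a) := by
  by_cases h : 0 < a ∧ a < k
  · exact ⟨a, h.1, h.2, fun _ _ h' => h'⟩
  · refine ⟨1, one_pos, by omega, fun i i' _ => ?_⟩
    have hi := i.2
    have hi' := i'.2
    by_cases h0 : a = 0
    · subst h0; simp
    · have : k ≤ a := by
        by_contra hlt
        exact h ⟨Nat.pos_of_ne_zero h0, by omega⟩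
      constructor <;> intro _ <;> omega

private lemma key (k : ℕ) (hk : 2 ≤ k) (H : Fin k → Fin k → Bool) (a b : ℕ)
    (hH : ∀ i i' j j' : Fin k, ((i : ℕ) < a ↔ (i' : ℕ) < a) → ((j : ℕ) < b ↔ (j' : ℕ) < b) →
      H i j = H i' j') :
    ∃ c : ℝ, 0 < c ∧ ∃ C : ℕ, ∀ (n : ℕ) (ε : ℝ) (A : Fin n → Fin n → Bool), 0 < ε → ε < 1 →
      IsFar H A ε → c * ε ^ C * (n : ℝ) ^ (2 * k) ≤ (numCopies H A : ℝ) := by
  obtain ⟨a', ha0, hak, ha⟩ := cut_fix hk a
  obtain ⟨b', hb0, hbk, hb⟩ := cut_fix hk b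
  have hk0 : 0 < k := by omega
  have hk1 : k - 1 < k := by omega
  let r : Fin 2 → Fin k := fun x => if x = 0 then ⟨0, hk0⟩ else ⟨k - 1, hk1⟩
  let ρ : Fin k → Fin 2 := fun i => if (i : ℕ) < a' then 0 else 1
  let γ : Fin k → Fin 2 := fun j => if (j : ℕ) < b' then 0 else 1
  let H₀ : Fin 2 → Fin 2 → Bool := fun x y => H (r x) (r y)
  have hmono : ∀ t : ℕ, Monotone (fun i : Fin k => if (i : ℕ) < t then (0 : Fin 2) else 1) := by
    intro t i i' hii
    have hii' : (i : ℕ) ≤ (i' : ℕ) := hii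
    by_cases h1 : (i : ℕ) < t
    · simp [h1]
    · have h2 : ¬ (i' : ℕ) < t := by omega
      simp [h1, h2]
  have hsurj : ∀ t : ℕ, 0 < t → t < k →
      Function.Surjective (fun i : Fin k => if (i : ℕ) < t then (0 : Fin 2) else 1) := by
    intro t ht0 htk x
    by_cases hx : x = 0
    · exact ⟨⟨0, hk0⟩, by simp [ht0, hx]⟩
    · have hx1 : x = 1 := by omega
      refine ⟨⟨k - 1, hk1⟩, ?_⟩
      have : ¬ (k - 1 < t) := by omega
      simp [this, hx1]
  have hrep : ∀ t : ℕ, 0 < t → t < k → ∀ i : Fin k,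
      ((i : ℕ) < t ↔ ((r (if (i : ℕ) < t then (0 : Fin 2) else 1) : Fin k) : ℕ) < t) := by
    intro t ht0 htk i
    by_cases h1 : (i : ℕ) < t
    · simp [h1, r, ht0]
    · have : ¬ (k - 1 < t) := by omega
      simp [h1, r, this]
  have hEq : H = fun i j => H₀ (ρ i) (γ j) := by
    funext i j
    exact hH i _ j _ (ha _ _ (hrep a' ha0 hak i)) (hb _ _ (hrep b' hb0 hbk j))
  rw [hEq]
  exact PolyRemoval.blowup (by norm_num) (all2 H₀) ρ γ (hmono a') (hmono b')
    (hsurj a' ha0 hak) (hsurj b' hb0 hbk)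

theorem result (k : ℕ) (hk : 2 ≤ k) (H : Fin k → Fin k → Bool) (a b : ℕ)
    (hH : ∀ i i' j j' : Fin k, ((i : ℕ) < a ↔ (i' : ℕ) < a) → ((j : ℕ) < b ↔ (j' : ℕ) < b) →
      H i j = H i' j') :
    ∃ c : ℝ, 0 < c ∧ ∃ C : ℕ, ∀ (n : ℕ) (ε : ℝ) (A : Fin n → Fin n → Bool), 0 < ε → ε < 1 →
      (∀ B : Fin n → Fin n → Bool,
        (¬ ∃ p q : Fin k → Fin n, StrictMono p ∧ StrictMono q ∧ ∀ i j, B (p i) (q j) = H i j) →
          ε * (n : ℝ) ^ 2 ≤ (Nat.card {x : Fin n × Fin n // A x.1 x.2 ≠ B x.1 x.2} : ℝ)) →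
      c * ε ^ C * (n : ℝ) ^ (2 * k) ≤
        (Nat.card {x : (Fin k → Fin n) × (Fin k → Fin n) //
          StrictMono x.1 ∧ StrictMono x.2 ∧ ∀ i j, A (x.1 i) (x.2 j) = H i j} : ℝ) := by
  obtain ⟨c, hc, C, h⟩ := key k hk H a b hH
  refine ⟨c, hc, C, fun n ε A h0 h1 hfar => ?_⟩
  have hcop : Nat.card {x : (Fin k → Fin n) × (Fin k → Fin n) //
      StrictMono x.1 ∧ StrictMono x.2 ∧ ∀ i j, A (x.1 i) (x.2 j) = H i j} = numCopies H A := by
    classical
    rw [Nat.card_eq_fintype_card, Fintype.card_subtype]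
    unfold numCopies copies
    congr 1
  rw [hcop]
  refine h n ε A h0 h1 (fun B hB => ?_)
  have hd : Nat.card {x : Fin n × Fin n // A x.1 x.2 ≠ B x.1 x.2} = numDiff A B := by
    classical
    rw [Nat.card_eq_fintype_card, Fintype.card_subtype]
    unfold numDiff
    congr 1
  rw [← hd]
  refine hfar B ?_
  rintro ⟨p, q, hp, hq, hpq⟩
  exact hB p q hp hq hpq

end Vale.Agent.Results.P037.BlockPatterns
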