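import Vale.Agent.P037.GFinal
import Vale.Agent.P037.FoldFinal

/-!
# P037: the polynomial removal bound for all patterns made of two row blocks and two column blocks

For every `k`, the conjectured bound `N_H(A) ≥ c_H ε^(C_H) n^(2k)` is proved for every `k × k` pattern `H`
obtained from a `2 × 2` pattern `H₀` by repeating its rows and its columns: `H i j = H₀ (ρ i) (γ j)` with
`ρ, γ : Fin k → Fin 2` monotone and onto. For `k = 2` these are all sixteen `2 × 2` patterns.
-/

namespace Vale.Agent.Results.P037.Blocks2x2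

open Vale.Agent.P037

theorem result (k : ℕ) (H₀ : Fin 2 → Fin 2 → Bool) (ρ γ : Fin k → Fin 2)
    (hρ : Monotone ρ) (hγ : Monotone γ) (hρs : Function.Surjective ρ) (hγs : Function.Surjective γ) :
    ∃ c : ℝ, 0 < c ∧ ∃ C : ℕ, ∀ (n : ℕ) (ε : ℝ) (A : Fin n → Fin n → Bool), 0 < ε → ε < 1 →
      IsFar (fun i j => H₀ (ρ i) (γ j)) A ε →
        c * ε ^ C * (n : ℝ) ^ (2 * k) ≤ (numCopies (fun i j => H₀ (ρ i) (γ j)) A : ℝ) :=
  PolyRemoval.blowup (by norm_num) (all2 H₀) ρ γ hρ hγ hρs hγs

end Vale.Agent.Results.P037.Blocks2x2
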