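import Vale.Agent.P037.Blowup

/-!
# P037: the polynomial removal bound for hosts with boundedly many row and column types

If the host matrix has the form `A r c = M (τ r) (σ c)` for an `m × m` binary matrix `M` and arbitrary
maps `τ σ : Fin n → Fin m` (equivalently: `A` has at most `m` kinds of rows and of columns, interleaved
in an arbitrary way), then `dist_H(A) ≥ ε` forces `N_H(A) ≥ (ε / (4 k m^k))^(2k) n^(2k)`.
-/

namespace Vale.Agent.Results.P037.BoundedTypes

open Vale.Agent.P037

theorem result (k m n : ℕ) (hk : 1 ≤ k) (H : Fin k → Fin k → Bool) (M : Fin m → Fin m → Bool)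
    (τ σ : Fin n → Fin m) (ε : ℝ) (hε0 : 0 < ε) (hε1 : ε < 1)
    (hfar : IsFar H (fun r c => M (τ r) (σ c)) ε) :
    (ε / (4 * (k : ℝ) * (m : ℝ) ^ k)) ^ (2 * k) * (n : ℝ) ^ (2 * k) ≤
      (numCopies H (fun r c => M (τ r) (σ c)) : ℝ) := by
  classical
  set A : Fin n → Fin n → Bool := fun r c => M (τ r) (σ c) with hA
  rcases Nat.eq_zero_or_pos n with hn | hn
  · subst hn
    have h2k : 2 * k ≠ 0 := by omega
    simp [h2k]
  have hm : 0 < m := by
    rcases Nat.eq_zero_or_pos m with hm | hm
    · subst hm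
      exact (τ ⟨0, hn⟩).elim0
    · exact hm
  have hnR : (0 : ℝ) < n := by exact_mod_cast hn
  have hkR : (0 : ℝ) < k := by exact_mod_cast hk
  have hmR : (0 : ℝ) < (m : ℝ) ^ k := by positivity
  set x : ℝ := ε * n / (2 * (k : ℝ) * (m : ℝ) ^ k) with hx
  have hxpos : 0 < x := by positivity
  have hlhs : (ε / (4 * (k : ℝ) * (m : ℝ) ^ k)) ^ (2 * k) * (n : ℝ) ^ (2 * k) = (x / 2) ^ (2 * k) := by
    rw [← mul_pow]
    congr 1
    rw [hx]
    field_simp
    ring
  rw [hlhs]
  by_cases hx1 : x ≤ 1
  · -- at least one copy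
    have hnotfree : ¬ IsFree H A := by
      intro hfree
      have h1 := hfar A hfree
      have h2 : numDiff A A = 0 := by simp [numDiff]
      rw [h2] at h1
      have : 0 < ε * (n : ℝ) ^ 2 := by positivity
      simp at h1
      linarith
    unfold IsFree at hnotfree
    push Not at hnotfree
    obtain ⟨p, q, hp, hq, hpq⟩ := hnotfree
    have hmem : (p, q) ∈ copies H A := by
      simp only [copies, Finset.mem_filter, Finset.mem_univ, true_and]
      exact ⟨hp, hq, hpq⟩
    have hcard : 1 ≤ numCopies H A := Finset.card_pos.mpr ⟨_, hmem⟩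
    have h1 : (x / 2) ^ (2 * k) ≤ 1 := by
      apply pow_le_one₀ (by positivity)
      linarith
    have h2 : (1 : ℝ) ≤ (numCopies H A : ℝ) := by exact_mod_cast hcard
    linarith
  · push Not at hx1
    set g : ℕ := Nat.ceil x - 1 with hg
    have hceil : x ≤ (Nat.ceil x : ℝ) := Nat.le_ceil x
    have hceil2 : 2 ≤ Nat.ceil x := by
      have : 1 < Nat.ceil x := Nat.lt_ceil.mpr (by simpa using hx1)
      omega
    have hgR : (g : ℝ) = (Nat.ceil x : ℝ) - 1 := by
      rw [hg, Nat.cast_sub (by omega)]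
      simp
    have hglt : (g : ℝ) < x := by
      rw [hgR]
      have := Nat.ceil_lt_add_one hxpos.le
      linarith
    have hgge : x / 2 ≤ (g : ℝ) := by
      have h1 : (1 : ℝ) ≤ g := by
        have : 1 ≤ g := by omega
        exact_mod_cast this
      have h2 : x - 1 ≤ (g : ℝ) := by rw [hgR]; linarith
      linarith
    have hcond : 2 * ((m : ℝ) ^ k * (k * g)) < ε * n := by
      have h1 : (g : ℝ) * (2 * (k : ℝ) * (m : ℝ) ^ k) < ε * n := by
        rw [hx] at hglt
        rwa [lt_div_iff₀ (by positivity)] at hglt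
      linarith
    have hkey := key_lemma H M τ σ ε hε1 hfar g hcond
    have hkeyR : ((g : ℝ)) ^ (2 * k) ≤ (numCopies H A : ℝ) := by exact_mod_cast hkey
    have hpow : (x / 2) ^ (2 * k) ≤ (g : ℝ) ^ (2 * k) := by
      apply pow_le_pow_left₀ (by positivity) hgge
    linarith

end Vale.Agent.Results.P037.BoundedTypes
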